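import Mathlib

/-! Elementary one-dimensional integrals used for the truncated exponential weight problem. -/

set_option autoImplicit false

open MeasureTheory Set Filter Topology Real

namespace Crest.Agent.R280

/-- indicator of `s < z`. -/
noncomputable def stp (z s : ℝ) : ℝ := if s < z then 1 else 0

lemma stp_sub_of_nonneg {z : ℝ} (hz : 0 ≤ z) :
    (fun s => stp z s - stp 0 s) = (Ico 0 z).indicator (fun _ => (1 : ℝ)) := by
  funext s
  unfold stp
  by_cases h1 : s < z <;> by_cases h2 : s < 0 <;> simp [h1, h2, indicator, not_lt.mp]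
  linarith

lemma stp_sub_of_neg {z : ℝ} (hz : z < 0) :
    (fun s => stp z s - stp 0 s) = (Ico z 0).indicator (fun _ => (-1 : ℝ)) := by
  funext s
  unfold stp
  by_cases h1 : s < z <;> by_cases h2 : s < 0 <;> simp [h1, h2, indicator, not_lt.mp]
  linarith

lemma integrable_stp_sub (z : ℝ) : Integrable (fun s => stp z s - stp 0 s) := by
  rcases le_or_gt 0 z with hz | hz
  · rw [stp_sub_of_nonneg hz, integrable_indicator_iff measurableSet_Ico]
    exact integrableOn_const (by simp)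
  · rw [stp_sub_of_neg hz, integrable_indicator_iff measurableSet_Ico]
    exact integrableOn_const (by simp)

lemma integral_stp_sub (z : ℝ) : ∫ s, (stp z s - stp 0 s) = z := by
  rcases le_or_gt 0 z with hz | hz
  · rw [stp_sub_of_nonneg hz, integral_indicator measurableSet_Ico]
    simp [hz]
  · rw [stp_sub_of_neg hz, integral_indicator measurableSet_Ico]
    simp [hz.le]

lemma integral_norm_stp_sub (z : ℝ) : ∫ s, ‖stp z s - stp 0 s‖ = |z| := by
  rcases le_or_gt 0 z with hz | hz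
  · have : (fun s => ‖stp z s - stp 0 s‖) = fun s => stp z s - stp 0 s := by
      funext s
      have := congrFun (stp_sub_of_nonneg hz) s
      rw [this]
      exact Real.norm_of_nonneg (indicator_nonneg (fun _ _ => zero_le_one) _)
    rw [this, integral_stp_sub, abs_of_nonneg hz]
  · have : (fun s => ‖stp z s - stp 0 s‖) = fun s => -(stp z s - stp 0 s) := by
      funext s
      have := congrFun (stp_sub_of_neg hz) s
      rw [this]
      exact Real.norm_of_nonpos (indicator_nonpos (fun _ _ => by norm_num) _)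
    rw [this, integral_neg, integral_stp_sub, abs_of_neg hz]

lemma hasDerivAt_aux (k : ℝ) (hk : k ≠ 0) (s : ℝ) :
    HasDerivAt (fun s => -((s / k + 1 / k ^ 2) * exp (-(k * s)))) (s * exp (-(k * s))) s := by
  have h1 : HasDerivAt (fun s : ℝ => s / k + 1 / k ^ 2) (1 / k) s :=
    ((hasDerivAt_id s).div_const k).add_const _
  have h2 : HasDerivAt (fun s : ℝ => exp (-(k * s))) (exp (-(k * s)) * (-(k * 1))) s :=
    (((hasDerivAt_id s).const_mul k).neg).exp
  have h3 := (h1.mul h2).neg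
  refine h3.congr_deriv ?_
  field_simp
  ring

lemma tendsto_aux (k : ℝ) (hk : 0 < k) :
    Tendsto (fun s => -((s / k + 1 / k ^ 2) * exp (-(k * s)))) atTop (𝓝 0) := by
  have h0 : Tendsto (fun s : ℝ => k * s) atTop atTop := tendsto_id.const_mul_atTop hk
  have h1 := (tendsto_pow_mul_exp_neg_atTop_nhds_zero 1).comp h0
  have h2 := (tendsto_pow_mul_exp_neg_atTop_nhds_zero 0).comp h0
  have h3 := ((h1.add h2).const_mul (1 / k ^ 2)).neg
  simp only [add_zero, mul_zero, neg_zero] at h3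
  refine h3.congr (fun s => ?_)
  simp only [Function.comp]
  field_simp

lemma integrableOn_mul_exp (k b : ℝ) (hk : 0 < k) (hb : 0 ≤ b) :
    IntegrableOn (fun s => s * exp (-(k * s))) (Ioi b) :=
  integrableOn_Ioi_deriv_of_nonneg' (fun s _ => hasDerivAt_aux k hk.ne' s)
    (fun _ hs => mul_nonneg (hb.trans (le_of_lt hs)) (exp_pos _).le) (tendsto_aux k hk)

lemma integral_mul_exp (k b : ℝ) (hk : 0 < k) (hb : 0 ≤ b) :
    ∫ s in Ioi b, s * exp (-(k * s)) = (b / k + 1 / k ^ 2) * exp (-(k * b)) := by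
  rw [integral_Ioi_of_hasDerivAt_of_nonneg' (fun s _ => hasDerivAt_aux k hk.ne' s)
    (fun s hs => mul_nonneg (hb.trans (le_of_lt hs)) (exp_pos _).le) (tendsto_aux k hk)]
  ring

lemma integrableOn_exp_k (k b : ℝ) (hk : 0 < k) :
    IntegrableOn (fun s => exp (-(k * s))) (Ioi b) := by
  have := exp_neg_integrableOn_Ioi b hk
  simpa using this

lemma integral_exp_k (k b : ℝ) (hk : 0 < k) :
    ∫ s in Ioi b, exp (-(k * s)) = exp (-(k * b)) / k := by
  have := integral_exp_mul_Ioi (a := -k) (by linarith) b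
  simp only [neg_mul] at this
  rw [this]
  field_simp

/-- the weight `s e^{-s}` -/
noncomputable def wt (s : ℝ) : ℝ := s * exp (-s)

lemma integrableOn_wt (b : ℝ) (hb : 0 ≤ b) : IntegrableOn wt (Ioi b) := by
  have := integrableOn_mul_exp 1 b one_pos hb
  simp only [one_mul] at this
  exact this

lemma integral_wt (b : ℝ) (hb : 0 ≤ b) : ∫ s in Ioi b, wt s = (b + 1) * exp (-b) := by
  have := integral_mul_exp 1 b one_pos hb
  simpa [wt] using this

lemma wt_mono {x y : ℝ} (hx : 0 ≤ x) (hxy : x ≤ y) (hy : y ≤ 1) : wt x ≤ wt y := by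
  unfold wt
  have h1 : exp (-y) = exp (-x) * exp (-(y - x)) := by rw [← exp_add]; ring_nf
  have h2 : 1 - (y - x) ≤ exp (-(y - x)) := by have := add_one_le_exp (-(y - x)); linarith
  have h3 : x ≤ y * exp (-(y - x)) := by nlinarith [mul_le_mul_of_nonneg_left h2 (hx.trans hxy)]
  rw [h1]
  nlinarith [exp_pos (-x), mul_le_mul_of_nonneg_left h3 (exp_pos (-x)).le]

lemma wt_anti {x y : ℝ} (hx : 1 ≤ x) (hxy : x ≤ y) : wt y ≤ wt x := by
  unfold wt
  have h1 : exp (-x) = exp (-y) * exp (y - x) := by rw [← exp_add]; ring_nf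
  have h2 : (y - x) + 1 ≤ exp (y - x) := add_one_le_exp _
  have h3 : y ≤ x * exp (y - x) := by
    nlinarith [mul_le_mul_of_nonneg_left h2 (zero_le_one.trans hx), mul_nonneg (sub_nonneg.2 hx) (sub_nonneg.2 hxy)]
  rw [h1]
  nlinarith [exp_pos (-y), mul_le_mul_of_nonneg_left h3 (exp_pos (-y)).le]

/-- comparison tail function -/
noncomputable def cmp (κ β s : ℝ) : ℝ := min 1 (exp (β - κ * s))

lemma cmp_nonneg (κ β s : ℝ) : 0 ≤ cmp κ β s := le_min zero_le_one (exp_pos _).le

lemma cmp_le_one (κ β s : ℝ) : cmp κ β s ≤ 1 := min_le_left _ _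

lemma continuous_cmp (κ β : ℝ) : Continuous (cmp κ β) := by
  unfold cmp; fun_prop

lemma cmp_sub_eq {κ : ℝ} (hκ : 0 < κ) (β : ℝ) :
    (fun s => cmp κ β s - stp 0 s) = fun s => (stp (β / κ) s - stp 0 s) +
      (Ici (β / κ)).indicator (fun s => exp β * exp (-(κ * s))) s := by
  funext s
  unfold cmp
  by_cases h : s < β / κ
  · have h1 : 0 ≤ β - κ * s := by
      rw [lt_div_iff₀ hκ] at h; linarith
    rw [min_eq_left (one_le_exp h1), indicator_of_notMem (by simpa using h)]
    simp [stp, h]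
  · have h' : β / κ ≤ s := not_lt.mp h
    have h1 : β - κ * s ≤ 0 := by
      rw [div_le_iff₀ hκ] at h'; linarith
    rw [min_eq_right (exp_le_one_iff.2 h1), indicator_of_mem (by simpa using h'), ← exp_add]
    simp only [stp, h, if_false]
    ring_nf

lemma integrable_cmp_tail {κ : ℝ} (hκ : 0 < κ) (β : ℝ) :
    Integrable ((Ici (β / κ)).indicator (fun s => exp β * exp (-(κ * s)))) := by
  rw [integrable_indicator_iff measurableSet_Ici, integrableOn_Ici_iff_integrableOn_Ioi]
  exact (integrableOn_exp_k κ _ hκ).const_mul _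

lemma integrable_cmp_sub {κ : ℝ} (hκ : 0 < κ) (β : ℝ) :
    Integrable (fun s => cmp κ β s - stp 0 s) := by
  rw [cmp_sub_eq hκ]
  exact (integrable_stp_sub _).add (integrable_cmp_tail hκ β)

lemma integral_cmp_sub {κ : ℝ} (hκ : 0 < κ) (β : ℝ) :
    ∫ s, (cmp κ β s - stp 0 s) = (1 + β) / κ := by
  rw [cmp_sub_eq hκ, integral_add (integrable_stp_sub _) (integrable_cmp_tail hκ β),
    integral_stp_sub, integral_indicator measurableSet_Ici, integral_Ici_eq_integral_Ioi,
    integral_const_mul, integral_exp_k _ _ hκ]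
  have : -(κ * (β / κ)) = -β := by field_simp
  rw [this, exp_neg]
  field_simp
  ring

/-- the extremal constant -/
noncomputable def cst : ℝ := 4 / 9 * exp (-(1 / 3))

lemma cst_le : cst ≤ 0.32 := by
  unfold cst
  have h := Real.sum_le_exp_of_nonneg (x := 1 / 3) (by norm_num) 4
  simp only [Finset.sum_range_succ, Finset.sum_range_zero, Nat.factorial] at h
  norm_num at h
  rw [exp_neg, ← div_eq_mul_inv, div_le_iff₀ (exp_pos _)]
  linarith

lemma integrableOn_wt_mul {f : ℝ → ℝ} (hf : Continuous f) (h0 : ∀ s, 0 ≤ f s) (h1 : ∀ s, f s ≤ 1)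
    (b : ℝ) (hb : 0 ≤ b) : IntegrableOn (fun s => wt s * f s) (Ioi b) := by
  refine Integrable.mul_bdd (c := 1) (integrableOn_wt b hb) hf.aestronglyMeasurable ?_
  exact Eventually.of_forall fun s => by rw [Real.norm_of_nonneg (h0 s)]; exact h1 s

lemma poly_ineq (a b : ℝ) (ha : 0 ≤ a) (hb : 0 ≤ b) (hab : a + b = 4 / 3) :
    b * (1 + a) + 1 + 2 * a ≤ 0.68 * (1 + a) ^ 2 * (1 + b + b ^ 2 / 2 + b ^ 3 / 6) := by
  have h0 : 0 ≤ b ^ 5 := by positivity
  have h1 : 0 ≤ a * b ^ 4 := by positivity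
  have h2 : 0 ≤ a ^ 2 * b ^ 3 := by positivity
  have h3 : 0 ≤ a ^ 3 * b ^ 2 := by positivity
  have h4 : 0 ≤ a ^ 4 * b := by positivity
  have h5 : 0 ≤ a ^ 5 := by positivity
  obtain rfl : b = 4 / 3 - a := by linarith
  nlinarith [h0, h1, h2, h3, h4, h5]

lemma cmp_lower_aux {κ : ℝ} (hκ : 0 < κ) :
    cst ≤ ∫ s in Ioi 0, wt s * cmp κ (4 / 3 * κ - 1) s := by
  set β := 4 / 3 * κ - 1 with hβ
  have hk1 : 0 < 1 + κ := by linarith
  have key : ∀ b : ℝ, 0 ≤ b → β ≤ κ * b → ∫ s in Ioi b, wt s * cmp κ β s =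
      exp β * ((b / (1 + κ) + 1 / (1 + κ) ^ 2) * exp (-((1 + κ) * b))) := by
    intro b hb hb'
    rw [← integral_mul_exp _ _ hk1 hb, ← integral_const_mul]
    refine setIntegral_congr_fun measurableSet_Ioi (fun s hs => ?_)
    have hs' : b < s := hs
    have h1 : β - κ * s ≤ 0 := by nlinarith
    simp only [cmp, wt]
    rw [min_eq_right (exp_le_one_iff.2 h1), mul_assoc, ← exp_add, mul_left_comm, ← exp_add]
    ring_nf
  rcases le_or_gt β 0 with h | h
  · rw [key 0 le_rfl (by simpa using h)]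
    simp only [zero_div, mul_zero, neg_zero, exp_zero, zero_add, mul_one]
    unfold cst
    have h1 : exp β = exp (-(1 / 3)) * (exp ((2 * κ - 1) / 3)) ^ 2 := by
      rw [sq, ← exp_add, ← exp_add]; congr 1; rw [hβ]; ring
    have h2 : 2 / 3 * (1 + κ) ≤ exp ((2 * κ - 1) / 3) := by
      have := add_one_le_exp ((2 * κ - 1) / 3); linarith
    have h3 : (2 / 3 * (1 + κ)) ^ 2 ≤ (exp ((2 * κ - 1) / 3)) ^ 2 := by gcongr
    rw [h1, mul_one_div, le_div_iff₀ (by positivity)]
    nlinarith [exp_pos (-(1 / 3) : ℝ), mul_le_mul_of_nonneg_left h3 (exp_pos (-(1 / 3) : ℝ)).le]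
  · set b := β / κ with hb
    have hb0 : 0 < b := div_pos h hκ
    have hκb : κ * b = β := by rw [hb]; field_simp
    have hint := integrableOn_wt_mul (continuous_cmp κ β) (cmp_nonneg κ β) (cmp_le_one κ β) 0 le_rfl
    have hun : Ioi (0 : ℝ) = Ioc 0 b ∪ Ioi b := (Ioc_union_Ioi_eq_Ioi hb0.le).symm
    have hdisj : Disjoint (Ioc 0 b) (Ioi b) := Ioc_disjoint_Ioi le_rfl
    have e1 : ∫ s in Ioi 0, wt s * cmp κ β s =
        (∫ s in Ioc 0 b, wt s * cmp κ β s) + ∫ s in Ioi b, wt s * cmp κ β s := by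
      rw [hun] at hint ⊢
      exact setIntegral_union hdisj measurableSet_Ioi (hint.mono_set subset_union_left)
        (hint.mono_set subset_union_right)
    have e2 : ∫ s in Ioi 0, wt s = (∫ s in Ioc 0 b, wt s) + ∫ s in Ioi b, wt s := by
      have hint := integrableOn_wt 0 le_rfl
      rw [hun] at hint ⊢
      exact setIntegral_union hdisj measurableSet_Ioi (hint.mono_set subset_union_left)
        (hint.mono_set subset_union_right)
    have e3 : ∫ s in Ioc 0 b, wt s * cmp κ β s = ∫ s in Ioc 0 b, wt s := by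
      refine setIntegral_congr_fun measurableSet_Ioc (fun s hs => ?_)
      have h1 : 0 ≤ β - κ * s := by nlinarith [hs.2]
      simp only [cmp]
      rw [min_eq_left (one_le_exp h1), mul_one]
    rw [integral_wt 0 le_rfl, integral_wt b hb0.le] at e2
    rw [e1, e3, key b hb0.le hκb.ge]
    have e4 : exp β * ((b / (1 + κ) + 1 / (1 + κ) ^ 2) * exp (-((1 + κ) * b))) =
        (b / (1 + κ) + 1 / (1 + κ) ^ 2) * exp (-b) := by
      rw [mul_left_comm, ← exp_add]; congr 2; rw [← hκb]; ring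
    rw [e4]
    set a := 1 / κ with ha
    have ha0 : 0 < a := by positivity
    have hab : a + b = 4 / 3 := by rw [ha, hb, hβ]; field_simp; ring
    have hu : 1 / (1 + κ) = a / (1 + a) := by rw [ha]; field_simp; ring
    have hp := poly_ineq a b ha0.le hb0.le hab
    have he := Real.sum_le_exp_of_nonneg hb0.le 4
    simp only [Finset.sum_range_succ, Finset.sum_range_zero, Nat.factorial] at he
    norm_num at he
    have e5 : (b + 1) - (b / (1 + κ) + 1 / (1 + κ) ^ 2) = (b * (1 + a) + 1 + 2 * a) / (1 + a) ^ 2 := by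
      have : 1 / (1 + κ) ^ 2 = (a / (1 + a)) ^ 2 := by rw [← hu]; field_simp
      rw [this, div_eq_mul_one_div b, hu]
      field_simp
      ring
    have e6 : (b * (1 + a) + 1 + 2 * a) / (1 + a) ^ 2 ≤ 0.68 * exp b := by
      rw [div_le_iff₀ (by positivity)]
      have : 0.68 * (1 + a) ^ 2 * (1 + b + b ^ 2 / 2 + b ^ 3 / 6) ≤ 0.68 * (1 + a) ^ 2 * exp b := by
        gcongr
      linarith
    have e7 : ((b + 1) - (b / (1 + κ) + 1 / (1 + κ) ^ 2)) * exp (-b) ≤ 0.68 := by
      rw [e5, exp_neg, ← div_eq_mul_inv, div_le_iff₀ (exp_pos _)]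
      exact e6
    have := cst_le
    simp only [zero_add, neg_zero, exp_zero, mul_one] at e2
    linarith

lemma cmp_lower {κ β : ℝ} (hκ : 0 < κ) (hβ : 4 / 3 * κ - 1 ≤ β) :
    cst ≤ ∫ s in Ioi 0, wt s * cmp κ β s := by
  refine (cmp_lower_aux hκ).trans ?_
  refine setIntegral_mono_on
    (integrableOn_wt_mul (continuous_cmp _ _) (cmp_nonneg _ _) (cmp_le_one _ _) 0 le_rfl)
    (integrableOn_wt_mul (continuous_cmp _ _) (cmp_nonneg _ _) (cmp_le_one _ _) 0 le_rfl)
    measurableSet_Ioi (fun s hs => ?_)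
  have : 0 ≤ wt s := mul_nonneg (le_of_lt hs) (exp_pos _).le
  unfold cmp
  gcongr

end Crest.Agent.R280
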