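import Crest.Agent.R280.Basic

/-! The comparison inequality for log-concave tail functions. -/

set_option autoImplicit false

open MeasureTheory Set Filter Topology Real

namespace Crest.Agent.R280

/-- positive log-concave functions bounded by one -/
structure LC (R : ℝ → ℝ) : Prop where
  pos : ∀ s, 0 < R s
  le_one : ∀ s, R s ≤ 1
  conc : ConcaveOn ℝ univ (fun s => log (R s))

lemma LC.continuous_log {R : ℝ → ℝ} (h : LC R) : Continuous (fun s => log (R s)) := by
  rw [← continuousOn_univ]
  exact h.conc.continuousOn isOpen_univ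

lemma LC.continuous {R : ℝ → ℝ} (h : LC R) : Continuous R := by
  have : R = fun s => exp (log (R s)) := by funext s; rw [exp_log (h.pos s)]
  rw [this]
  exact continuous_exp.comp h.continuous_log

/-- three-point form of concavity -/
lemma conc3 {f : ℝ → ℝ} (hf : ConcaveOn ℝ univ f) {x y z : ℝ} (hxy : x ≤ y) (hyz : y ≤ z) :
    (z - y) * f x + (y - x) * f z ≤ (z - x) * f y := by
  rcases eq_or_lt_of_le (hxy.trans hyz) with h | h
  · have h1 : y = x := le_antisymm (h ▸ hyz) hxy
    subst h1; subst h; simp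
  · have hzx : 0 < z - x := sub_pos.2 h
    have := hf.2 (mem_univ x) (mem_univ z)
      (div_nonneg (sub_nonneg.2 hyz) hzx.le) (div_nonneg (sub_nonneg.2 hxy) hzx.le)
      (by field_simp; ring)
    simp only [smul_eq_mul] at this
    have e : (z - y) / (z - x) * x + (y - x) / (z - x) * z = y := by field_simp; ring
    rw [e] at this
    have h2 := mul_le_mul_of_nonneg_left this hzx.le
    have e2 : (z - x) * ((z - y) / (z - x) * f x + (y - x) / (z - x) * f z) =
        (z - y) * f x + (y - x) * f z := by field_simp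
    linarith

lemma secant_in {f : ℝ → ℝ} (hf : ConcaveOn ℝ univ f) {x y κ β : ℝ} (hxy : x < y)
    (hx : f x = β - κ * x) (hy : f y = β - κ * y) {s : ℝ} (h1 : x ≤ s) (h2 : s ≤ y) :
    β - κ * s ≤ f s := by
  have := conc3 hf h1 h2
  rw [hx, hy] at this
  have h3 : 0 < y - x := sub_pos.2 hxy
  refine le_of_mul_le_mul_left ?_ h3
  nlinarith

lemma secant_left {f : ℝ → ℝ} (hf : ConcaveOn ℝ univ f) {x y κ β : ℝ} (hxy : x < y)
    (hx : f x = β - κ * x) (hy : f y = β - κ * y) {s : ℝ} (h1 : s ≤ x) :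
    f s ≤ β - κ * s := by
  have := conc3 hf h1 hxy.le
  rw [hx, hy] at this
  have h3 : 0 < y - x := sub_pos.2 hxy
  refine le_of_mul_le_mul_left ?_ h3
  nlinarith

lemma secant_right {f : ℝ → ℝ} (hf : ConcaveOn ℝ univ f) {x y κ β : ℝ} (hxy : x < y)
    (hx : f x = β - κ * x) (hy : f y = β - κ * y) {s : ℝ} (h1 : y ≤ s) :
    f s ≤ β - κ * s := by
  have := conc3 hf hxy.le h1
  rw [hx, hy] at this
  have h3 : 0 < y - x := sub_pos.2 hxy
  refine le_of_mul_le_mul_left ?_ h3
  nlinarith

lemma support_line {f : ℝ → ℝ} (hf : ConcaveOn ℝ univ f) (p : ℝ) :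
    ∃ σ : ℝ, ∀ s, f s ≤ f p + σ * (s - p) := by
  obtain ⟨σ, h1, h2⟩ := exists_between_of_forall_le
    (s := (fun y => (f y - f p) / (y - p)) '' Ioi p) (t := (fun x => (f p - f x) / (p - x)) '' Iio p)
    (nonempty_Ioi.image _) (nonempty_Iio.image _) (by
      rintro _ ⟨y, hy, rfl⟩ _ ⟨x, hx, rfl⟩
      have hy' : 0 < y - p := sub_pos.2 hy
      have hx' : 0 < p - x := sub_pos.2 hx
      have := conc3 hf (le_of_lt hx) (le_of_lt hy)
      simp only
      rw [div_le_div_iff₀ hy' hx']
      nlinarith)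
  refine ⟨σ, fun s => ?_⟩
  rcases lt_trichotomy s p with h | h | h
  · have := h2 ⟨s, h, rfl⟩
    simp only at this
    rw [le_div_iff₀ (sub_pos.2 h)] at this
    nlinarith
  · simp [h]
  · have := h1 ⟨s, h, rfl⟩
    simp only at this
    rw [div_le_iff₀ (sub_pos.2 h)] at this
    nlinarith

section main

variable {R : ℝ → ℝ} (hR : LC R) (hi : Integrable (fun s => R s - stp 0 s))
  (hm : ∫ s, (R s - stp 0 s) = 4 / 3)

include hR hi in
lemma exists_left (x : ℝ) : ∃ s ≤ x, -1 < log (R s) := by
  by_contra hcon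
  push Not at hcon
  have h1 : 0 < 1 - exp (-1) := by
    have : exp (-1 : ℝ) < 1 := exp_lt_one_iff.2 (by norm_num)
    linarith
  have h2 := hi.measure_norm_ge_lt_top h1
  have h3 : Iic (min x (-1)) ⊆ {s | 1 - exp (-1) ≤ ‖R s - stp 0 s‖} := by
    intro s hs
    have hs1 : s ≤ x := le_trans hs (min_le_left _ _)
    have hs2 : s < 0 := lt_of_le_of_lt (le_trans hs (min_le_right _ _)) (by norm_num)
    have h4 : R s ≤ exp (-1) := by
      rw [← exp_log (hR.pos s)]; exact exp_le_exp.2 (hcon s hs1)
    simp only [mem_ofPred_eq, stp, hs2, if_true]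
    rw [Real.norm_eq_abs, abs_of_nonpos (by linarith [hR.le_one s])]
    linarith
  have := lt_of_le_of_lt (measure_mono h3) h2
  simp at this

include hR hi in
lemma exists_right : ∃ s, 1 ≤ s ∧ log (R s) < log (R 0) := by
  by_contra hcon
  push Not at hcon
  have h2 := hi.measure_norm_ge_lt_top (hR.pos 0)
  have h3 : Ici (1 : ℝ) ⊆ {s | R 0 ≤ ‖R s - stp 0 s‖} := by
    intro s hs
    have hs1 : (1 : ℝ) ≤ s := hs
    have hs2 : ¬ s < 0 := by linarith
    have h4 : R 0 ≤ R s := (log_le_log_iff (hR.pos 0) (hR.pos s)).1 (hcon s hs1)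
    simp only [mem_ofPred_eq, stp, hs2, if_false, sub_zero]
    rwa [Real.norm_of_nonneg (hR.pos s).le]
  have := lt_of_le_of_lt (measure_mono h3) h2
  simp at this

include hR in
lemma le_cmp {κ β s : ℝ} (h : log (R s) ≤ β - κ * s) : R s ≤ cmp κ β s := by
  refine le_min (hR.le_one s) ?_
  rw [← exp_log (hR.pos s)]; exact exp_le_exp.2 h

include hR in
lemma cmp_le {κ β s : ℝ} (h : β - κ * s ≤ log (R s)) : cmp κ β s ≤ R s := by
  refine (min_le_right _ _).trans ?_
  rw [← exp_log (hR.pos s)]; exact exp_le_exp.2 h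

include hR hi hm in
lemma grunbaum : -1 ≤ log (R (4 / 3)) := by
  obtain ⟨σ, hσ⟩ := support_line hR.conc (4 / 3)
  rcases lt_or_ge σ 0 with h | h
  · have hκ : 0 < -σ := by linarith
    have h1 : ∀ s, R s - stp 0 s ≤ cmp (-σ) (log (R (4 / 3)) - σ * (4 / 3)) s - stp 0 s := by
      intro s
      have := le_cmp hR (κ := -σ) (β := log (R (4 / 3)) - σ * (4 / 3)) (s := s)
        (by have := hσ s; linarith)
      linarith
    have h2 := integral_mono hi (integrable_cmp_sub hκ _) h1
    rw [hm, integral_cmp_sub hκ, le_div_iff₀ hκ] at h2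
    linarith
  · obtain ⟨s, hs, hs'⟩ := exists_left hR hi (4 / 3)
    have := hσ s
    nlinarith

include hR hi hm in
lemma main_ineq {x y κ β : ℝ} (hx0 : 0 < x) (hx1 : x ≤ 1) (hy1 : 1 ≤ y) (hxy : x < y)
    (hw : wt x = wt y) (hκ : 0 < κ) (hx : log (R x) = β - κ * x) (hy : log (R y) = β - κ * y) :
    (∫ s in Ioi 0, wt s * cmp κ β s) + wt x * (4 / 3 - (1 + β) / κ) ≤
      ∫ s in Ioi 0, wt s * R s := by
  have i1 := integrableOn_wt_mul hR.continuous (fun s => (hR.pos s).le) hR.le_one 0 le_rfl
  have i2 := integrableOn_wt_mul (continuous_cmp κ β) (cmp_nonneg _ _) (cmp_le_one _ _) 0 le_rfl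
  have i3 := integrable_cmp_sub hκ β
  have hlam : 0 ≤ wt x := mul_nonneg hx0.le (exp_pos _).le
  have key : ∀ s, wt x * ((R s - stp 0 s) - (cmp κ β s - stp 0 s)) ≤
      (Ioi 0).indicator (fun s => wt s * R s - wt s * cmp κ β s) s := by
    intro s
    rcases le_or_gt s 0 with h0 | h0
    · rw [indicator_of_notMem (by simpa using h0)]
      have := le_cmp hR (secant_left hR.conc hxy hx hy (s := s) (by linarith))
      nlinarith
    · rw [indicator_of_mem (by simpa using h0)]
      rcases le_total s x with h1 | h1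
      · have := le_cmp hR (secant_left hR.conc hxy hx hy h1)
        have h2 := wt_mono h0.le h1 hx1
        nlinarith
      · rcases le_total s y with h2 | h2
        · have := cmp_le hR (secant_in hR.conc hxy hx hy h1 h2)
          have h3 : wt x ≤ wt s := by
            rcases le_total s 1 with h4 | h4
            · exact wt_mono hx0.le h1 h4
            · rw [hw]; exact wt_anti h4 h2
          nlinarith
        · have := le_cmp hR (secant_right hR.conc hxy hx hy h2)
          have h3 : wt s ≤ wt x := by rw [hw]; exact wt_anti hy1 h2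
          nlinarith
  have h := integral_mono ((hi.sub i3).const_mul (wt x))
    ((integrable_indicator_iff measurableSet_Ioi).2 (i1.sub i2)) key
  simp only [Pi.sub_apply] at h
  rw [integral_const_mul, integral_sub hi i3, hm, integral_cmp_sub hκ,
    integral_indicator measurableSet_Ioi] at h
  simp only [Pi.sub_apply] at h
  rw [integral_sub i1 i2] at h
  linarith

/-- left level point -/
noncomputable def pl (r : ℝ) : ℝ := log r / (r - 1)
/-- right level point -/
noncomputable def pr (r : ℝ) : ℝ := r * (log r / (r - 1))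

lemma pl_pos {r : ℝ} (hr : 1 < r) : 0 < pl r := div_pos (log_pos hr) (by linarith)

lemma pl_le {r : ℝ} (hr : 1 < r) : pl r ≤ 1 := by
  unfold pl
  rw [div_le_one (by linarith)]
  exact log_le_sub_one_of_pos (by linarith)

lemma pr_sub_pl {r : ℝ} (hr : 1 < r) : pr r - pl r = log r := by
  unfold pr pl
  have : r - 1 ≠ 0 := by linarith
  field_simp

lemma one_le_pr {r : ℝ} (hr : 1 < r) : 1 ≤ pr r := by
  unfold pr
  have h0 : 0 < r := by linarith
  have := one_sub_inv_le_log_of_pos h0
  rw [← mul_div_assoc, le_div_iff₀ (by linarith)]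
  have h2 := mul_le_mul_of_nonneg_left this h0.le
  rw [mul_sub, mul_inv_cancel₀ h0.ne'] at h2
  linarith

lemma wt_pl_pr {r : ℝ} (hr : 1 < r) : wt (pl r) = wt (pr r) := by
  have h1 : pr r = pl r + log r := by linarith [pr_sub_pl hr]
  have h2 : pr r = r * pl r := rfl
  have h0 : 0 < r := by linarith
  unfold wt
  rw [show -pr r = -pl r + -log r by rw [h1]; ring, exp_add, exp_neg (log r), exp_log h0, h2]
  field_simp

include hR hi hm in
theorem core : cst ≤ ∫ s in Ioi 0, wt s * R s := by
  set l : ℝ → ℝ := fun s => log (R s) with hl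
  have hlc : Continuous l := hR.continuous_log
  let κ : ℝ → ℝ := fun r => (l (pl r) - l (pr r)) / log r
  let β : ℝ → ℝ := fun r => l (pl r) + κ r * pl r
  have hx : ∀ r, 1 < r → log (R (pl r)) = β r - κ r * pl r := fun r _ => by simp [β, hl]
  have hy : ∀ r, 1 < r → log (R (pr r)) = β r - κ r * pr r := fun r hr => by
    have h1 := pr_sub_pl hr
    have h2 : log r ≠ 0 := (log_pos hr).ne'
    have h3 : κ r * log r = l (pl r) - l (pr r) := by simp only [κ]; field_simp
    simp only [β]
    have : l (pr r) = log (R (pr r)) := rfl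
    rw [← h1] at h3
    linarith
  have hlt : ∀ r, 1 < r → pl r < pr r := fun r hr => by
    linarith [pr_sub_pl hr, log_pos hr]
  let D : ℝ → ℝ := fun r => β r - κ r * (4 / 3) + 1
  have hD0 : 0 ≤ D (4 / 3) := by
    have h1 : (1 : ℝ) < 4 / 3 := by norm_num
    have h2 : pr (4 / 3) ≤ 4 / 3 := by
      have := pl_le h1
      have h3 : pr (4 / 3) = 4 / 3 * pl (4 / 3) := rfl
      linarith
    have := secant_right hR.conc (hlt _ h1) (hx _ h1) (hy _ h1) h2
    have h4 := grunbaum hR hi hm
    simp only [D]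
    linarith
  have hDc : ContinuousOn D (Ici (4 / 3)) := by
    have c1 : ContinuousOn log (Ici (4 / 3 : ℝ)) :=
      continuousOn_log.mono (fun r hr => by
        have : (4 / 3 : ℝ) ≤ r := hr
        simp only [mem_compl_iff, mem_singleton_iff]; linarith)
    have c2 : ContinuousOn pl (Ici (4 / 3 : ℝ)) :=
      c1.div (by fun_prop) (fun r hr => by have : (4 / 3 : ℝ) ≤ r := hr; linarith)
    have c3 : ContinuousOn pr (Ici (4 / 3 : ℝ)) := continuousOn_id.mul c2
    have c4 : ContinuousOn κ (Ici (4 / 3 : ℝ)) :=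
      ((hlc.comp_continuousOn c2).sub (hlc.comp_continuousOn c3)).div c1
        (fun r hr => by
          have : (4 / 3 : ℝ) ≤ r := hr
          exact (log_pos (by linarith)).ne')
    have c5 : ContinuousOn β (Ici (4 / 3 : ℝ)) := (hlc.comp_continuousOn c2).add (c4.mul c2)
    exact (c5.sub (c4.mul continuousOn_const)).add continuousOn_const
  by_cases hcase : ∃ r, 4 / 3 ≤ r ∧ D r ≤ 0
  · obtain ⟨r, hr, hDr⟩ := hcase
    have := intermediate_value_Icc' hr (hDc.mono Icc_subset_Ici_self) ⟨hDr, hD0⟩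
    obtain ⟨t, ht, hDt⟩ := this
    have ht1 : 1 < t := by linarith [ht.1]
    have hDt' : β t - κ t * (4 / 3) + 1 = 0 := hDt
    have hκ : 0 < κ t := by
      by_contra hneg
      push Not at hneg
      obtain ⟨s, hs, hs'⟩ := exists_left hR hi (pl t)
      have := secant_left hR.conc (hlt _ ht1) (hx _ ht1) (hy _ ht1) hs
      have h5 := pl_le ht1
      nlinarith
    have h1 := main_ineq hR hi hm (pl_pos ht1) (pl_le ht1) (one_le_pr ht1) (hlt _ ht1)
      (wt_pl_pr ht1) hκ (hx _ ht1) (hy _ ht1)
    have h2 : (1 + β t) / κ t = 4 / 3 := by rw [div_eq_iff hκ.ne']; linarith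
    have h3 := cmp_lower (κ := κ t) (β := β t) hκ (by linarith)
    rw [h2] at h1
    linarith
  · push Not at hcase
    obtain ⟨s0, hs0, hs0'⟩ := exists_right hR hi
    set k0 := (log (R 0) - log (R s0)) / s0 with hk0
    have hk0pos : 0 < k0 := div_pos (by linarith) (by linarith)
    have ht : Tendsto (fun r => cst - pl r * (1 + 1 / k0)) atTop (𝓝 (cst - 0 * (1 + 1 / k0))) := by
      refine tendsto_const_nhds.sub (Tendsto.mul_const _ ?_)
      have := tendsto_pow_log_div_mul_add_atTop 1 (-1) 1 one_ne_zero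
      refine this.congr (fun r => ?_)
      simp [pl, sub_eq_add_neg]
    rw [zero_mul, sub_zero] at ht
    refine le_of_tendsto ht ?_
    filter_upwards [eventually_ge_atTop (4 / 3), tendsto_log_atTop.eventually_ge_atTop s0] with r hr hr2
    have hr1 : 1 < r := by linarith
    have h1 : s0 ≤ pr r := by linarith [pr_sub_pl hr1, pl_pos hr1]
    have h2 := secant_in hR.conc (hlt _ hr1) (hx _ hr1) (hy _ hr1) ((pl_le hr1).trans hs0) h1
    have h3 := secant_left hR.conc (hlt _ hr1) (hx _ hr1) (hy _ hr1) (pl_pos hr1).le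
    have h4 : k0 ≤ κ r := by
      rw [hk0, div_le_iff₀ (by linarith)]
      linarith
    have hκ : 0 < κ r := lt_of_lt_of_le hk0pos h4
    have h5 := main_ineq hR hi hm (pl_pos hr1) (pl_le hr1) (one_le_pr hr1) (hlt _ hr1)
      (wt_pl_pr hr1) hκ (hx _ hr1) (hy _ hr1)
    have hDr : 0 < β r - κ r * (4 / 3) + 1 := hcase r hr
    have h6 := cmp_lower (κ := κ r) (β := β r) hκ (by linarith)
    have h7 : (1 + β r) / κ r ≤ 1 + 1 / k0 := by
      have h8 : log (R (pl r)) ≤ 0 := log_nonpos (hR.pos _).le (hR.le_one _)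
      have h9 : β r ≤ κ r := by
        have := hx r hr1
        nlinarith [pl_le hr1]
      have h10 : 1 / κ r ≤ 1 / k0 := one_div_le_one_div_of_le hk0pos h4
      have h11 : β r / κ r ≤ 1 := (div_le_one hκ).2 h9
      rw [add_div]
      linarith
    have h8 : wt (pl r) ≤ pl r := by
      unfold wt
      have : exp (-pl r) ≤ 1 := exp_le_one_iff.2 (by linarith [pl_pos hr1])
      nlinarith [pl_pos hr1]
    have h9 : 0 ≤ wt (pl r) := mul_nonneg (pl_pos hr1).le (exp_pos _).le
    have h10 : 0 ≤ 1 + 1 / k0 := by positivity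
    nlinarith [mul_le_mul_of_nonneg_right h8 h10, mul_le_mul_of_nonneg_left h7 h9]

end main

end Crest.Agent.R280
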