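import Crest.Agent.R280.Prob

/-! The upper bound and its sharpness. -/

set_option autoImplicit false

open MeasureTheory Set Filter Topology Real Crest.AlgGeometry

namespace Crest.Agent.R280

lemma measurable_g : Measurable truncExpWeight := by
  unfold truncExpWeight
  exact Measurable.ite measurableSet_Iic measurable_const (by fun_prop)

lemma g_nonneg (y : ℝ) : 0 ≤ truncExpWeight y := by
  unfold truncExpWeight
  split_ifs with h
  · norm_num
  · have : 0 < y := not_le.1 h
    positivity

lemma g_le_one (y : ℝ) : truncExpWeight y ≤ 1 := by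
  unfold truncExpWeight
  split_ifs with h
  · norm_num
  · rw [exp_neg, ← div_eq_mul_inv, div_le_one (exp_pos _)]
    linarith [add_one_le_exp y]

lemma upper_zero : truncExpWeight (4 / 3) ≤ 1 - cst := by
  have h1 := cst_le
  unfold truncExpWeight
  rw [if_neg (by norm_num), exp_neg, ← div_eq_mul_inv]
  have h := Real.sum_le_exp_of_nonneg (x := 4 / 3) (by norm_num) 4
  simp only [Finset.sum_range_succ, Finset.sum_range_zero, Nat.factorial] at h
  norm_num at h
  have : (1 + 4 / 3) / exp (4 / 3) ≤ 0.68 := by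
    rw [div_le_iff₀ (exp_pos _)]; linarith
  linarith

theorem upper (n : ℕ) (a : Fin (n + 1) → ℝ) (ha : ∑ i, a i = 0) :
    ∫ x, truncExpWeight (4 / 3 + ∑ i, a i * x i) ∂PN (n + 1) ≤ 1 - cst := by
  by_cases hj : ∃ j, 0 < a j
  · obtain ⟨j, hj⟩ := hj
    have hZ : Measurable (fun x : Fin (n + 1) → ℝ => 4 / 3 + ∑ i, a i * x i) := by fun_prop
    have hi1 : ∀ i, Integrable (fun x : Fin (n + 1) → ℝ => a i * x i) (PN (n + 1)) := fun i =>
      (integrable_eval (μ := fun _ : Fin (n + 1) => eps) (i := i) integrable_id_eps).const_mul _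
    have hi2 : Integrable (fun x : Fin (n + 1) → ℝ => ∑ i, a i * x i) (PN (n + 1)) :=
      integrable_finsetSum _ (fun i _ => hi1 i)
    have hi : Integrable (fun x : Fin (n + 1) → ℝ => 4 / 3 + ∑ i, a i * x i) (PN (n + 1)) :=
      (integrable_const _).add hi2
    have hmean : ∫ x, (4 / 3 + ∑ i, a i * x i) ∂PN (n + 1) = 4 / 3 := by
      rw [integral_add (integrable_const _) hi2, integral_finsetSum _ (fun i _ => hi1 i)]
      simp_rw [integral_const_mul, integral_eval, integral_id_eps]
      simp [ha]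
    obtain ⟨t1, t2⟩ := tail_mean (PN (n + 1)) hZ hi
    rw [hmean] at t2
    rw [exp_g _ hZ]
    have hLC : LC (fun s => ∫ x, stp (4 / 3 + ∑ i, a i * x i) s ∂PN (n + 1)) := by
      have h1 := (LC.sum n (fun k => a (j.succAbove k)) (LC_cmp (1 / a j) 0)).comp_affine 1 (-(4 / 3))
      convert h1 using 2 with s
      rw [split a j (f := fun z => stp (4 / 3 + z) s)
        (measurable_stp (by fun_prop) measurable_const) (fun _ => stp_nonneg _ _)
        (fun _ => stp_le_one _ _)]
      congr 1
      funext y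
      have h2 := tail_eps hj (4 / 3 + ∑ k, a (j.succAbove k) * y k) s
      have e : ∀ u, 4 / 3 + (a j * u + ∑ k, a (j.succAbove k) * y k) =
          4 / 3 + ∑ k, a (j.succAbove k) * y k + a j * u := fun u => by ring
      simp_rw [e]
      rw [h2]
      unfold cmp
      congr 2
      field_simp
      ring
    have := core hLC t1 t2
    linarith
  · push Not at hj
    have h0 : ∀ i, a i = 0 := fun i =>
      (Finset.sum_eq_zero_iff_of_nonpos (fun i _ => hj i)).1 ha i (Finset.mem_univ _)
    simp only [h0, zero_mul, Finset.sum_const_zero, add_zero, integral_const, probReal_univ,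
      smul_eq_mul, one_mul]
    exact upper_zero

lemma inner_lower (y : ℝ) : 1 - 4 / 9 * exp (y / 2) ≤ ∫ u, truncExpWeight (y + 2 * u) ∂eps := by
  rw [exp_g eps (Z := fun u => y + 2 * u) (by fun_prop)]
  simp_rw [tail_eps two_pos]
  have h1 : ∫ s in Ioi 0, wt s * cmp (1 / 2) (y / 2) s ≤
      ∫ s in Ioi (0 : ℝ), exp (y / 2) * (s * exp (-(3 / 2 * s))) := by
    refine setIntegral_mono_on
      (integrableOn_wt_mul (continuous_cmp _ _) (cmp_nonneg _ _) (cmp_le_one _ _) 0 le_rfl)
      ((integrableOn_mul_exp (3 / 2) 0 (by norm_num) le_rfl).const_mul _)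
      measurableSet_Ioi (fun s hs => ?_)
    have h2 : 0 ≤ wt s := mul_nonneg (le_of_lt hs) (exp_pos _).le
    calc wt s * cmp (1 / 2) (y / 2) s ≤ wt s * exp (y / 2 - 1 / 2 * s) :=
          mul_le_mul_of_nonneg_left (min_le_right _ _) h2
      _ = exp (y / 2) * (s * exp (-(3 / 2 * s))) := by
          unfold wt
          rw [mul_assoc, ← exp_add, mul_left_comm, ← exp_add]
          congr 2; ring
  rw [integral_const_mul, integral_mul_exp _ _ (by norm_num) le_rfl] at h1
  norm_num at h1 ⊢
  linarith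

lemma integral_exp_eps {c : ℝ} (hc : 0 ≤ c) : ∫ u, exp (-(c * u)) ∂eps = 1 / (1 + c) := by
  rw [integral_eps]
  have := integral_exp_k (1 + c) 0 (by linarith)
  simp only [mul_zero, neg_zero, exp_zero] at this
  rw [← this]
  refine setIntegral_congr_fun measurableSet_Ioi (fun u _ => ?_)
  rw [← exp_add]; congr 1; ring

lemma integrable_exp_eps {c : ℝ} (hc : 0 ≤ c) : Integrable (fun u => exp (-(c * u))) eps := by
  rw [integrable_eps_iff]
  refine (integrableOn_exp_k (1 + c) 0 (by linarith)).congr_fun (fun u _ => ?_) measurableSet_Ioi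
  simp only
  rw [← exp_add]; congr 1; ring

/-- the extremal coefficients -/
noncomputable def coef (n : ℕ) : Fin (n + 1) → ℝ := Fin.cons 2 (fun _ => -2 / n)

lemma sum_coef {n : ℕ} (hn : 0 < n) : ∑ i, coef n i = 0 := by
  have : (n : ℝ) ≠ 0 := by positivity
  simp [coef, Fin.sum_univ_succ]
  field_simp
  ring

lemma lower (n : ℕ) : 1 - 4 / 9 * exp (2 / 3) * (1 / (1 + 1 / (n : ℝ))) ^ n ≤
    ∫ x, truncExpWeight (4 / 3 + ∑ i, coef n i * x i) ∂PN (n + 1) := by
  rw [split (coef n) 0 (f := fun z => truncExpWeight (4 / 3 + z))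
    (measurable_g.comp (by fun_prop)) (fun _ => g_nonneg _) (fun _ => g_le_one _)]
  have hc : (0 : ℝ) ≤ 1 / n := by positivity
  have i1 : Integrable (fun y : Fin n → ℝ => ∏ j, exp (-(1 / n * y j))) (PN n) :=
    Integrable.fintype_prod (f := fun _ u => exp (-(1 / n * u))) fun _ => integrable_exp_eps hc
  have e1 : ∫ y, (1 - 4 / 9 * exp (2 / 3) * ∏ j, exp (-(1 / n * y j))) ∂PN n =
      1 - 4 / 9 * exp (2 / 3) * (1 / (1 + 1 / (n : ℝ))) ^ n := by
    rw [integral_sub (integrable_const _) (i1.const_mul _), integral_const_mul,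
      integral_fintype_prod_eq_prod (fun _ u => exp (-(1 / n * u)))]
    simp only [integral_exp_eps hc]
    simp
  rw [← e1]
  have i2 : Integrable (fun p : ℝ × (Fin n → ℝ) => truncExpWeight
      (4 / 3 + (coef n 0 * p.1 + ∑ j, coef n ((0 : Fin (n + 1)).succAbove j) * p.2 j)))
      (eps.prod (PN n)) :=
    integrable_of_bdd (measurable_g.comp (by fun_prop)) (fun _ => g_nonneg _) (fun _ => g_le_one _)
  refine integral_mono ((integrable_const _).sub (i1.const_mul _)) i2.integral_prod_right
    (fun y => ?_)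
  have h := inner_lower (4 / 3 + ∑ j, -2 / n * y j)
  have e2 : exp ((4 / 3 + ∑ j, -2 / n * y j) / 2) = exp (2 / 3) * ∏ j, exp (-(1 / n * y j)) := by
    rw [← exp_sum, ← exp_add]
    congr 1
    rw [add_div, Finset.sum_div]
    congr 1
    · norm_num
    · exact Finset.sum_congr rfl fun j _ => by ring
  rw [e2, ← mul_assoc] at h
  refine h.trans (le_of_eq ?_)
  congr 1
  funext u
  congr 1
  simp [coef]
  ring

lemma tendsto_lower : Tendsto (fun n : ℕ => 1 - 4 / 9 * exp (2 / 3) * (1 / (1 + 1 / (n : ℝ))) ^ n)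
    atTop (𝓝 (1 - cst)) := by
  have h := (tendsto_one_add_div_pow_exp 1).inv₀ (exp_pos _).ne'
  have h2 := (h.const_mul (4 / 9 * exp (2 / 3))).const_sub 1
  have e : 4 / 9 * exp (2 / 3) * (exp 1)⁻¹ = cst := by
    unfold cst
    rw [← exp_neg, mul_assoc, ← exp_add]
    norm_num
  rw [e] at h2
  refine h2.congr (fun n => ?_)
  rw [one_div (1 + 1 / (n : ℝ)), inv_pow]

lemma final_const : exp (4 / 3) / (4 / 3) * (1 - cst) = 3 / 4 * exp (4 / 3) - exp 1 / 3 := by
  unfold cst
  have : exp 1 = exp (4 / 3) * exp (-(1 / 3)) := by rw [← exp_add]; norm_num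
  rw [this]
  ring

end Crest.Agent.R280
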