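import Crest.Agent.R280.Core
import Crest.Prelude.Def_TruncExpWeight

/-! Weighted sums of independent exponential variables have log-concave tails. -/

set_option autoImplicit false

open MeasureTheory Set Filter Topology Real

namespace Crest.Agent.R280

/-- the law of a mean-one exponential variable -/
noncomputable def eps : Measure ℝ :=
  (volume.restrict (Ioi 0)).withDensity (fun x => ENNReal.ofReal (exp (-x)))

lemma integral_eps (f : ℝ → ℝ) : ∫ x, f x ∂eps = ∫ x in Ioi 0, exp (-x) * f x := by
  unfold eps
  rw [integral_withDensity_eq_integral_toReal_smul (by fun_prop) (by simp)]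
  refine integral_congr_ae (Eventually.of_forall fun x => ?_)
  simp [ENNReal.toReal_ofReal (exp_pos _).le]

lemma integrable_eps_iff (f : ℝ → ℝ) :
    Integrable f eps ↔ IntegrableOn (fun x => exp (-x) * f x) (Ioi 0) := by
  unfold eps
  rw [integrable_withDensity_iff_integrable_smul' (by fun_prop) (by simp)]
  simp only [ENNReal.toReal_ofReal (exp_pos _).le, smul_eq_mul]
  rfl

lemma eps_apply {s : Set ℝ} (hs : MeasurableSet s) :
    eps s = ENNReal.ofReal (∫ x in s, exp (-x) ∂(volume.restrict (Ioi 0))) := by
  unfold eps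
  rw [withDensity_apply _ hs, ofReal_integral_eq_lintegral_ofReal]
  · exact (integrableOn_exp_neg_Ioi 0).integrableOn
  · exact Eventually.of_forall fun x => (exp_pos _).le

instance : IsProbabilityMeasure eps := ⟨by
  rw [eps_apply MeasurableSet.univ, Measure.restrict_univ, integral_exp_neg_Ioi_zero]
  simp⟩

lemma ae_pos_eps : ∀ᵐ x ∂eps, 0 < x := by
  unfold eps
  exact (withDensity_absolutelyContinuous _ _).ae_le (ae_restrict_mem measurableSet_Ioi)

lemma integrable_id_eps : Integrable id eps := by
  rw [integrable_eps_iff]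
  exact (integrableOn_wt 0 le_rfl).congr_fun (fun x _ => by simp [wt, mul_comm]) measurableSet_Ioi

lemma integral_id_eps : ∫ x, x ∂eps = 1 := by
  rw [integral_eps]
  have := integral_wt 0 le_rfl
  simp only [wt, zero_add, neg_zero, exp_zero, mul_one] at this
  simpa [mul_comm] using this

lemma integrable_of_bdd {Ω : Type*} [MeasurableSpace Ω] {P : Measure Ω} [IsFiniteMeasure P]
    {f : Ω → ℝ} (hf : Measurable f) (h0 : ∀ x, 0 ≤ f x) (h1 : ∀ x, f x ≤ 1) : Integrable f P :=
  (integrable_const (1 : ℝ)).mono' hf.aestronglyMeasurable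
    (Eventually.of_forall fun x => by rw [Real.norm_of_nonneg (h0 x)]; exact h1 x)

lemma LC.comp_affine {T : ℝ → ℝ} (h : LC T) (c d : ℝ) : LC (fun s => T (c * s + d)) := by
  refine ⟨fun s => h.pos _, fun s => h.le_one _, convex_univ, ?_⟩
  intro x _ y _ a b ha hb hab
  have := h.conc.2 (mem_univ (c * x + d)) (mem_univ (c * y + d)) ha hb hab
  simp only [smul_eq_mul] at this ⊢
  have e : a * (c * x + d) + b * (c * y + d) = c * (a * x + b * y) + d := by
    have : b = 1 - a := by linarith
    subst this; ring
  rwa [e] at this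

lemma LC.pf2 {T : ℝ → ℝ} (h : LC T) {x y z : ℝ} (hxy : x ≤ y) (hz : 0 ≤ z) :
    T y * T (x - z) ≤ T x * T (y - z) := by
  rw [← log_le_log_iff (mul_pos (h.pos _) (h.pos _)) (mul_pos (h.pos _) (h.pos _)),
    log_mul (h.pos _).ne' (h.pos _).ne', log_mul (h.pos _).ne' (h.pos _).ne']
  have h1 := conc3 h.conc (x := x - z) (y := x) (z := y) (by linarith) hxy
  have h2 := conc3 h.conc (x := x - z) (y := y - z) (z := y) (by linarith) (by linarith)
  rcases eq_or_lt_of_le (show 0 ≤ y - (x - z) by linarith) with h3 | h3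
  · have e1 : z = 0 := by linarith
    have e2 : y = x := by linarith
    simp [e1, e2]
  · refine le_of_mul_le_mul_left ?_ h3
    nlinarith

lemma LC.step_one {T : ℝ → ℝ} (h : LC T) : LC (fun v => ∫ u, T (v - u) ∂eps) := by
  have hc := h.continuous
  have hint : ∀ v, Integrable (fun u => T (v - u)) eps := fun v =>
    integrable_of_bdd (by fun_prop) (fun _ => (h.pos _).le) (fun _ => h.le_one _)
  set V : ℝ → ℝ := fun v => ∫ u, T (v - u) ∂eps with hV
  have hpos : ∀ v, 0 < V v := fun v => by
    rw [hV]
    simp only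
    rw [integral_pos_iff_support_of_nonneg (fun _ => (h.pos _).le) (hint v)]
    have : (Function.support fun u => T (v - u)) = univ := by
      ext u; simp [(h.pos _).ne']
    rw [this]; simp
  have hle : ∀ v, V v ≤ 1 := fun v => by
    have := integral_mono (hint v) (integrable_const (1 : ℝ)) (fun u => h.le_one (v - u))
    simpa using this
  let k : ℝ → ℝ := fun s => exp s * T s
  have hkc : Continuous k := by fun_prop
  have hki : ∀ v, IntegrableOn k (Iic v) := fun v => by
    refine Integrable.mul_bdd (c := 1) (integrableOn_exp_Iic v) hc.aestronglyMeasurable ?_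
    exact Eventually.of_forall fun s => by rw [Real.norm_of_nonneg (h.pos s).le]; exact h.le_one s
  have hVH : ∀ v, V v = exp (-v) * ((∫ s in Iic 0, k s) + ∫ s in (0 : ℝ)..v, k s) := fun v => by
    rw [← intervalIntegral.integral_Iic_sub_Iic (hki 0) (hki v), add_sub_cancel, hV]
    simp only
    rw [integral_eps, ← integral_const_mul, integral_Iic_eq_integral_Iio]
    have h1 := (Measure.measurePreserving_sub_left volume v).setIntegral_preimage_emb
      (MeasurableEquiv.subLeft v).measurableEmbedding (fun s => exp (-v) * k s) (Iio v)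
    have h2 : (fun u => v - u) ⁻¹' Iio v = Ioi 0 := by ext u; simp
    rw [h2] at h1
    rw [← h1]
    refine setIntegral_congr_fun measurableSet_Ioi (fun u _ => ?_)
    simp only [k]
    rw [← mul_assoc, ← exp_add]
    congr 2; ring
  have hder : ∀ v, HasDerivAt V (T v - V v) v := fun v => by
    have h1 : HasDerivAt (fun v => ∫ s in (0 : ℝ)..v, k s) (k v) v :=
      (hkc.integral_hasStrictDerivAt 0 v).hasDerivAt
    have h2 : HasDerivAt (fun v => exp (-v)) (exp (-v) * (-1)) v := (hasDerivAt_neg v).exp
    have h3 := h2.mul (h1.const_add (∫ s in Iic 0, k s))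
    have h4 : V = fun v => exp (-v) * ((∫ s in Iic 0, k s) + ∫ s in (0 : ℝ)..v, k s) := funext hVH
    have h5 := hVH v
    rw [h4]
    refine h3.congr_deriv ?_
    simp only [k] at h5 ⊢
    rw [← mul_assoc (exp (-v)) (exp v), ← exp_add]
    simp
    ring
  have hder2 : ∀ v, HasDerivAt (fun v => log (V v)) ((T v - V v) / V v) v := fun v =>
    (hder v).log (hpos v).ne'
  refine ⟨hpos, hle, Antitone.concaveOn_univ_of_deriv (fun v => (hder2 v).differentiableAt) ?_⟩
  intro x y hxy
  rw [(hder2 x).deriv, (hder2 y).deriv, div_le_div_iff₀ (hpos y) (hpos x)]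
  have : T y * V x ≤ T x * V y := by
    simp only [hV]
    rw [← integral_const_mul, ← integral_const_mul]
    refine integral_mono_ae ((hint x).const_mul _) ((hint y).const_mul _) ?_
    filter_upwards [ae_pos_eps] with u hu
    exact h.pf2 hxy hu.le
  nlinarith

lemma LC.step {T : ℝ → ℝ} (h : LC T) (a : ℝ) : LC (fun v => ∫ u, T (v - a * u) ∂eps) := by
  rcases eq_or_ne a 0 with rfl | ha
  · simpa using h
  · have := ((h.comp_affine a 0).step_one).comp_affine (1 / a) 0
    convert this using 4 with v u
    field_simp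
    ring_nf

/-- the product law -/
noncomputable abbrev PN (n : ℕ) : Measure (Fin n → ℝ) := Measure.pi (fun _ => eps)

lemma split {n : ℕ} (a : Fin (n + 1) → ℝ) (i : Fin (n + 1)) {f : ℝ → ℝ} (hf : Measurable f)
    (h0 : ∀ x, 0 ≤ f x) (h1 : ∀ x, f x ≤ 1) :
    ∫ x, f (∑ k, a k * x k) ∂PN (n + 1) =
      ∫ y, (∫ u, f (a i * u + ∑ j, a (i.succAbove j) * y j) ∂eps) ∂PN n := by
  rw [← ((measurePreserving_piFinSuccAbove (fun _ : Fin (n + 1) => eps) i).symm).integral_comp']
  have e : ∀ p : ℝ × (Fin n → ℝ),
      ∑ k, a k * ((MeasurableEquiv.piFinSuccAbove (fun _ : Fin (n + 1) => ℝ) i).symm p) k =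
        a i * p.1 + ∑ j, a (i.succAbove j) * p.2 j := by
    intro p
    rw [Fin.sum_univ_succAbove _ i]
    simp [MeasurableEquiv.piFinSuccAbove_symm_apply, Fin.insertNthEquiv]
  simp_rw [e]
  exact integral_prod_symm (fun p : ℝ × (Fin n → ℝ) => f (a i * p.1 + ∑ j, a (i.succAbove j) * p.2 j))
    (integrable_of_bdd (hf.comp (by fun_prop)) (fun _ => h0 _) (fun _ => h1 _))

lemma LC.sum : ∀ (n : ℕ) (a : Fin n → ℝ) {T : ℝ → ℝ}, LC T →
    LC (fun t => ∫ y, T (t - ∑ j, a j * y j) ∂PN n)
  | 0, a, T, h => by simpa using h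
  | n + 1, a, T, h => by
    have ih := LC.sum n (fun j => a ((0 : Fin (n + 1)).succAbove j)) (h.step (a 0))
    convert ih using 2 with t
    have hc := h.continuous
    rw [split a 0 (f := fun z => T (t - z)) (by fun_prop) (fun _ => (h.pos _).le)
      (fun _ => h.le_one _)]
    congr 1
    funext y
    congr 1
    funext u
    congr 1
    ring

lemma stp_nonneg (z s : ℝ) : 0 ≤ stp z s := by unfold stp; split_ifs <;> norm_num
lemma stp_le_one (z s : ℝ) : stp z s ≤ 1 := by unfold stp; split_ifs <;> norm_num

lemma measurable_stp {Ω : Type*} [MeasurableSpace Ω] {f g : Ω → ℝ} (hf : Measurable f)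
    (hg : Measurable g) : Measurable (fun ω => stp (f ω) (g ω)) :=
  Measurable.ite (measurableSet_lt hg hf) measurable_const measurable_const

lemma tail_eps {a : ℝ} (ha : 0 < a) (y s : ℝ) :
    ∫ u, stp (y + a * u) s ∂eps = cmp (1 / a) (y / a) s := by
  rw [integral_eps]
  set c := (s - y) / a with hc
  have e1 : (fun u => exp (-u) * stp (y + a * u) s) = (Ioi c).indicator (fun u => exp (-u)) := by
    funext u
    have : s < y + a * u ↔ c < u := by
      rw [hc, div_lt_iff₀ ha]; constructor <;> intro h <;> linarith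
    unfold stp
    by_cases h : c < u
    · rw [if_pos (this.2 h), indicator_of_mem (by simpa using h), mul_one]
    · rw [if_neg (fun h' => h (this.1 h')), indicator_of_notMem (by simpa using h), mul_zero]
  rw [e1, setIntegral_indicator measurableSet_Ioi, Ioi_inter_Ioi, integral_exp_neg_Ioi]
  have e2 : y / a - 1 / a * s = -c := by rw [hc]; field_simp; ring
  unfold cmp
  rw [e2]
  rcases le_total 0 c with h | h
  · rw [sup_eq_right.2 h, min_eq_right (exp_le_one_iff.2 (by linarith))]
  · rw [sup_eq_left.2 h, min_eq_left (one_le_exp (by linarith))]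
    simp

lemma LC_cmp (κ β : ℝ) : LC (cmp κ β) := by
  refine ⟨fun s => lt_min one_pos (exp_pos _), cmp_le_one _ _, ?_⟩
  have e : (fun s => log (cmp κ β s)) = (fun _ => (0 : ℝ)) ⊓ (fun s => β - κ * s) := by
    funext s
    simp only [cmp, Pi.inf_apply]
    rcases le_total 0 (β - κ * s) with h | h
    · rw [min_eq_left (one_le_exp h), log_one, inf_eq_left.2 h]
    · rw [min_eq_right (exp_le_one_iff.2 h), log_exp, inf_eq_right.2 h]
  rw [e]
  refine (concaveOn_const 0 convex_univ).inf ⟨convex_univ, ?_⟩
  intro x _ y _ a b _ _ hab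
  simp only [smul_eq_mul]
  have : b = 1 - a := by linarith
  subst this
  apply le_of_eq; ring

open Crest.AlgGeometry

lemma g_repr (z : ℝ) : truncExpWeight z = 1 - ∫ s in Ioi 0, wt s * stp z s := by
  unfold truncExpWeight
  split_ifs with h
  · rw [setIntegral_eq_zero_of_forall_eq_zero, sub_zero]
    intro s hs
    have : ¬ s < z := by have : 0 < s := hs; linarith
    simp [stp, this]
  · have hz : 0 < z := not_le.1 h
    have e : (fun s => wt s * stp z s) = fun s => wt s - (Ici z).indicator wt s := by
      funext s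
      by_cases h1 : s < z
      · rw [indicator_of_notMem (by simpa using h1)]; simp [stp, h1]
      · rw [indicator_of_mem (by simpa using h1)]; simp [stp, h1]
    rw [e, integral_sub (integrableOn_wt 0 le_rfl)
      ((integrableOn_wt 0 le_rfl).indicator measurableSet_Ici),
      setIntegral_indicator measurableSet_Ici, show Ioi (0 : ℝ) ∩ Ici z = Ici z from inter_eq_right.2 (fun s hs => lt_of_lt_of_le hz hs),
      integral_Ici_eq_integral_Ioi, integral_wt 0 le_rfl, integral_wt z hz.le]
    simp
    ring

section fubini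

variable {Ω : Type*} [MeasurableSpace Ω] (P : Measure Ω) [IsProbabilityMeasure P] {Z : Ω → ℝ}

lemma exp_g (hZ : Measurable Z) :
    ∫ ω, truncExpWeight (Z ω) ∂P = 1 - ∫ s in Ioi 0, wt s * ∫ ω, stp (Z ω) s ∂P := by
  have hint : Integrable (Function.uncurry fun ω s => wt s * stp (Z ω) s)
      (P.prod (volume.restrict (Ioi 0))) := by
    refine Integrable.mul_bdd (c := 1) ((integrableOn_wt 0 le_rfl).comp_snd P)
      (measurable_stp (hZ.comp measurable_fst) measurable_snd).aestronglyMeasurable ?_
    exact Eventually.of_forall fun p => by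
      rw [Real.norm_of_nonneg (stp_nonneg _ _)]; exact stp_le_one _ _
  simp_rw [g_repr, ← integral_const_mul]
  have h2 : Integrable (fun ω => ∫ s in Ioi 0, wt s * stp (Z ω) s) P := hint.integral_prod_left
  rw [← integral_integral_swap hint, integral_sub (integrable_const _) h2]
  simp

lemma tail_mean (hZ : Measurable Z) (hi : Integrable Z P) :
    Integrable (fun s => (∫ ω, stp (Z ω) s ∂P) - stp 0 s) ∧
      ∫ s, ((∫ ω, stp (Z ω) s ∂P) - stp 0 s) = ∫ ω, Z ω ∂P := by
  have hint : Integrable (Function.uncurry fun ω s => stp (Z ω) s - stp 0 s) (P.prod volume) := by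
    rw [integrable_prod_iff]
    · refine ⟨Eventually.of_forall fun ω => integrable_stp_sub (Z ω), ?_⟩
      simp only [Function.uncurry_apply_pair, integral_norm_stp_sub]
      exact hi.abs
    · exact ((measurable_stp (hZ.comp measurable_fst) measurable_snd).sub
        (measurable_stp measurable_const measurable_snd)).aestronglyMeasurable
  have e : ∀ s, (∫ ω, stp (Z ω) s ∂P) - stp 0 s = ∫ ω, (stp (Z ω) s - stp 0 s) ∂P := fun s => by
    rw [integral_sub (integrable_of_bdd (measurable_stp hZ measurable_const) (fun _ => stp_nonneg _ _)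
      (fun _ => stp_le_one _ _)) (integrable_const _)]
    simp
  simp_rw [e]
  refine ⟨hint.integral_prod_right, ?_⟩
  rw [← integral_integral_swap hint]
  simp_rw [integral_stp_sub]

end fubini

lemma bridge (n : ℕ) (f : (Fin n → ℝ) → ℝ) :
    ∫ x in Set.pi univ (fun _ : Fin n => Ioi (0 : ℝ)), f x * exp (-∑ i, x i) = ∫ x, f x ∂PN n := by
  have e : PN n = (Measure.pi fun _ : Fin n => volume.restrict (Ioi (0 : ℝ))).withDensity
      (fun x => ENNReal.ofReal (∏ i, exp (-x i))) := by
    refine Measure.pi_eq (fun s hs => ?_)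
    rw [withDensity_apply _ (MeasurableSet.univ_pi hs), Measure.restrict_pi_pi,
      ← ofReal_integral_eq_lintegral_ofReal, integral_fintype_prod_eq_prod (fun _ x => exp (-x)),
      ENNReal.ofReal_prod_of_nonneg]
    · exact Finset.prod_congr rfl fun i _ => (eps_apply (hs i)).symm
    · exact fun i _ => integral_nonneg fun x => (exp_pos _).le
    · exact Integrable.fintype_prod (f := fun _ x => exp (-x))
        fun i => (integrableOn_exp_neg_Ioi 0).integrableOn
    · exact Eventually.of_forall fun x => Finset.prod_nonneg fun i _ => (exp_pos _).le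
  rw [e, integral_withDensity_eq_integral_toReal_smul (by fun_prop) (by simp), volume_pi,
    Measure.restrict_pi_pi]
  refine integral_congr_ae (Eventually.of_forall fun x => ?_)
  simp only [smul_eq_mul]
  rw [ENNReal.toReal_ofReal (Finset.prod_nonneg fun i _ => (exp_pos _).le), ← exp_sum, mul_comm,
    Finset.sum_neg_distrib]

end Crest.Agent.R280
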